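import Vale.Agent.P253.R2.H384.Pull
import Vale.Agent.P253.R2.H66.Hoer1

/-!
# `CurvGE` for the dual metric along holomorphic discs
-/

open scoped ContDiff Topology
open Set Metric Complex Filter

set_option maxSynthPendingDepth 3
set_option linter.all false

noncomputable section

namespace Vale.Agent.P253.R2.H384

open Mfd Mfd.LocalKahler H66

section lap

variable {F : Type*} [NormedAddCommGroup F] [NormedSpace ℂ F] {f : ℂ → F} {Q : Set ℂ} {z : ℂ}

theorem dz_dzb_eq (hQ : IsOpen Q) (hf : ContDiffOn ℝ 2 f Q) (hz : z ∈ Q) :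
    dz (dzb f) z = (1 / 4 : ℂ) • (fderiv ℝ (fderiv ℝ f) z 1 1 + fderiv ℝ (fderiv ℝ f) z I I) := by
  have hA1 : DifferentiableAt ℝ (fderiv ℝ f) z :=
    ((hf.fderiv_of_isOpen hQ (m := 1) (by norm_num)).contDiffAt
      (hQ.mem_nhds hz)).differentiableAt (by simp)
  have h1 : ∀ c : ℂ, HasFDerivAt (fun y => fderiv ℝ f y c) ((fderiv ℝ (fderiv ℝ f) z).flip c) z := by
    intro c
    have := hA1.hasFDerivAt.clm_apply (hasFDerivAt_const c z)
    convert! this using 1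
    ext u <;> simp
  have h2 : ∀ v : ℂ, fderiv ℝ (dzb f) z v
      = (1 / 2 : ℂ) • (fderiv ℝ (fderiv ℝ f) z v 1 + I • fderiv ℝ (fderiv ℝ f) z v I) := by
    intro v
    have h3 := (((h1 1).add ((h1 I).const_smul I)).const_smul (1 / 2 : ℂ))
    have h4 : fderiv ℝ (dzb f) z = _ := h3.fderiv
    rw [h4]
    rfl
  have hs : fderiv ℝ (fderiv ℝ f) z 1 I = fderiv ℝ (fderiv ℝ f) z I 1 := by
    have : IsSymmSndFDerivAt ℝ f z :=
      (hf.contDiffAt (hQ.mem_nhds hz)).isSymmSndFDerivAt (by simp)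
    exact this.eq 1 I
  rw [dz, h2, h2, hs]
  have e1 : I • (I • fderiv ℝ (fderiv ℝ f) z I I) = -(fderiv ℝ (fderiv ℝ f) z I I) := by
    rw [smul_smul, I_mul_I, neg_one_smul]
  rw [smul_comm I (1 / 2 : ℂ), smul_add I, e1]
  module

end lap

variable {V : Type*} [NormedAddCommGroup V] [InnerProductSpace ℂ V] [FiniteDimensional ℂ V]
  {k : V → V →L[ℝ] V →L[ℝ] ℝ} {U : Set V} {γ : ℂ → V} {Q : Set ℂ} {ζ : ℂ}

/-- The Griffiths inequality for the dual metric. -/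
theorem curvGE_Gd (h : LocalKahler k U) (hR : ∀ z ∈ U, ∀ X a, 0 ≤ Rc k z X a) (hQ : IsOpen Q)
    (hγ : DifferentiableOn ℂ γ Q) (hm : MapsTo γ Q U) (hζ : ζ ∈ Q) :
    CurvGE (Gd k γ) (fun _ => 0) ζ := by
  intro b c
  have hG2 : ContDiffOn ℝ 2 (Gd k γ) Q := (contDiffOn_Gd h hQ hγ hm).of_le two_le_infty
  have h1 := griffiths h hR hQ hγ hm hζ b c
  rw [dz_dzb_eq hQ hG2 hζ]
  simp only [dzb, zero_mul, smul_apply, add_apply, inner_smul_right] at h1 ⊢
  have e1 : ∀ x : ℂ, ((1 / 4 : ℂ) * x).re = x.re / 4 := by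
    intro x
    have : (1 / 4 : ℂ) = ((1 / 4 : ℝ) : ℂ) := by push_cast; rfl
    rw [this, re_ofReal_mul]; ring
  have e2 : ∀ x : ℂ, ((1 / 2 : ℂ) * x).re = x.re / 2 := by
    intro x
    have : (1 / 2 : ℂ) = ((1 / 2 : ℝ) : ℂ) := by push_cast; rfl
    rw [this, re_ofReal_mul]; ring
  rw [e1, e2]
  linarith only [h1]

end Vale.Agent.P253.R2.H384
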