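import Vale.Agent.P253.R2.H384.Form
import Mathlib.Analysis.Complex.CauchyIntegral

/-!
# The Griffiths inequality along holomorphic discs
-/

open scoped ContDiff Topology InnerProductSpace
open Set Metric Complex Filter

set_option maxSynthPendingDepth 3
set_option linter.all false

noncomputable section

namespace Vale.Agent.P253.R2.H384

open Mfd Mfd.LocalKahler

variable {V : Type*} [NormedAddCommGroup V] [InnerProductSpace ℂ V] [FiniteDimensional ℂ V]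
  {k : V → V →L[ℝ] V →L[ℝ] ℝ} {U : Set V} {γ : ℂ → V} {Q : Set ℂ} {ζ : ℂ}

theorem two_le_infty : (2 : WithTop ℕ∞) ≤ ∞ := by
  simpa using! (WithTop.coe_le_coe.2 le_top : ((2 : ℕ∞) : WithTop ℕ∞) ≤ ((⊤ : ℕ∞) : WithTop ℕ∞))

theorem contDiffOn_disc (hQ : IsOpen Q) (hγ : DifferentiableOn ℂ γ Q) : ContDiffOn ℝ ∞ γ Q := by
  have : CompleteSpace V := FiniteDimensional.complete ℂ V
  exact (hγ.contDiffOn hQ).restrict_scalars ℝ

/-- first derivative of a holomorphic disc -/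
theorem hasFDerivAt_disc (hQ : IsOpen Q) (hγ : DifferentiableOn ℂ γ Q) (hζ : ζ ∈ Q) :
    HasFDerivAt γ ((ContinuousLinearMap.toSpanSingleton ℂ (deriv γ ζ)).restrictScalars ℝ) ζ := by
  have h1 : HasDerivAt γ (deriv γ ζ) ζ := (hγ.differentiableAt (hQ.mem_nhds hζ)).hasDerivAt
  exact h1.hasFDerivAt.restrictScalars ℝ

section comp

variable {W : Type*} [NormedAddCommGroup W] [NormedSpace ℝ W] {f : V → W}

/-- first derivative along a holomorphic disc -/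
theorem fderiv_comp_disc (hU : IsOpen U) (hf : ContDiffOn ℝ 2 f U) (hQ : IsOpen Q)
    (hγ : DifferentiableOn ℂ γ Q) (hm : MapsTo γ Q U) (hζ : ζ ∈ Q) (c : ℂ) :
    fderiv ℝ (fun ζ => f (γ ζ)) ζ c = fderiv ℝ f (γ ζ) (c • deriv γ ζ) := by
  have h1 : HasFDerivAt f (fderiv ℝ f (γ ζ)) (γ ζ) :=
    ((hf.contDiffAt (hU.mem_nhds (hm hζ))).differentiableAt (by simp)).hasFDerivAt
  have h2 := h1.comp ζ (hasFDerivAt_disc hQ hγ hζ)
  have h3 : HasFDerivAt (fun ζ => f (γ ζ)) _ ζ := h2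
  rw [h3.fderiv]
  simp

/-- the Laplacian along a holomorphic disc is the Levi form -/
theorem laplace_comp_disc (hU : IsOpen U) (hf : ContDiffOn ℝ 2 f U) (hQ : IsOpen Q)
    (hγ : DifferentiableOn ℂ γ Q) (hm : MapsTo γ Q U) (hζ : ζ ∈ Q) :
    fderiv ℝ (fderiv ℝ (fun ζ => f (γ ζ))) ζ 1 1 + fderiv ℝ (fderiv ℝ (fun ζ => f (γ ζ))) ζ I I
      = fderiv ℝ (fderiv ℝ f) (γ ζ) (deriv γ ζ) (deriv γ ζ)
        + fderiv ℝ (fderiv ℝ f) (γ ζ) (I • deriv γ ζ) (I • deriv γ ζ) := by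
  have : CompleteSpace V := FiniteDimensional.complete ℂ V
  have hγ' : DifferentiableOn ℂ (deriv γ) Q := hγ.deriv hQ
  have hff : ContDiffOn ℝ 1 (fderiv ℝ f) U := hf.fderiv_of_isOpen hU (by norm_num)
  have hc2 : ContDiffOn ℝ 2 (fun ζ => f (γ ζ)) Q :=
    hf.comp ((contDiffOn_disc hQ hγ).of_le two_le_infty) hm
  have hc1 : ContDiffOn ℝ 1 (fderiv ℝ (fun ζ => f (γ ζ))) Q :=
    hc2.fderiv_of_isOpen hQ (by norm_num)
  have hd : HasFDerivAt (fderiv ℝ (fun ζ => f (γ ζ)))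
      (fderiv ℝ (fderiv ℝ (fun ζ => f (γ ζ))) ζ) ζ :=
    ((hc1.contDiffAt (hQ.mem_nhds hζ)).differentiableAt (by simp)).hasFDerivAt
  have key : ∀ c : ℂ, fderiv ℝ (fderiv ℝ (fun ζ => f (γ ζ))) ζ c c
      = fderiv ℝ (fderiv ℝ f) (γ ζ) (c • deriv γ ζ) (c • deriv γ ζ)
        + fderiv ℝ f (γ ζ) (c • (c • deriv (deriv γ) ζ)) := by
    intro c
    have e1 : HasFDerivAt (fun y => fderiv ℝ (fun ζ => f (γ ζ)) y c)
        ((fderiv ℝ (fderiv ℝ (fun ζ => f (γ ζ))) ζ).flip c) ζ := by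
      have := hd.clm_apply (hasFDerivAt_const c ζ)
      convert! this using 1
      ext u <;> simp
    have e2 : (fun y => fderiv ℝ (fun ζ => f (γ ζ)) y c) =ᶠ[𝓝 ζ]
        (fun y => fderiv ℝ f (γ y) (c • deriv γ y)) := by
      filter_upwards [hQ.mem_nhds hζ] with y hy using fderiv_comp_disc hU hf hQ hγ hm hy c
    have e3 : HasFDerivAt (fun y => fderiv ℝ f (γ y))
        ((fderiv ℝ (fderiv ℝ f) (γ ζ)).comp
          ((ContinuousLinearMap.toSpanSingleton ℂ (deriv γ ζ)).restrictScalars ℝ)) ζ :=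
      ((hff.contDiffAt (hU.mem_nhds (hm hζ))).differentiableAt (by simp)).hasFDerivAt.comp ζ
        (hasFDerivAt_disc hQ hγ hζ)
    have e4 : HasFDerivAt (fun y => c • deriv γ y)
        (c • ((ContinuousLinearMap.toSpanSingleton ℂ (deriv (deriv γ) ζ)).restrictScalars ℝ)) ζ :=
      (hasFDerivAt_disc hQ hγ' hζ).const_smul c
    have e5 := e3.clm_apply e4
    have e6 := (e1.congr_of_eventuallyEq e2.symm).unique e5
    have e7 := congrArg (fun T => T c) e6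
    simp only [ContinuousLinearMap.flip_apply, add_apply, ContinuousLinearMap.comp_apply,
      smul_apply, ContinuousLinearMap.coe_restrictScalars',
      ContinuousLinearMap.toSpanSingleton_apply] at e7
    rw [e7]
    abel
  rw [key 1, key I]
  simp only [one_smul, smul_smul, I_mul_I, neg_one_smul, map_neg]
  abel

end comp

/-- The metric along a disc, as an operator. -/
def Hd (k : V → V →L[ℝ] V →L[ℝ] ℝ) (γ : ℂ → V) (ζ : ℂ) : V →L[ℂ] V := Aop (k (γ ζ))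

theorem inv_fderiv (h : LocalKahler k U) {z : V} (hz : z ∈ U) (u : V) : Inv (fderiv ℝ k z u) := by
  intro v w
  have h3 : (fun y => k y (I • v) (I • w)) =ᶠ[𝓝 z] (fun y => k y v w) := by
    filter_upwards [h.isOpen.mem_nhds hz] with y hy using h.herm y hy v w
  have h4 := ((h.hasFDerivAt_apply hz (I • v) (I • w)).congr_of_eventuallyEq h3.symm).unique
    (h.hasFDerivAt_apply hz v w)
  have := congrArg (fun T => T u) h4
  simpa using this

theorem Inv.add {k k' : V →L[ℝ] V →L[ℝ] ℝ} (h : Inv k) (h' : Inv k') : Inv (k + k') := by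
  intro v w
  simp only [add_apply, h v w, h' v w]

theorem inv_levi (h : LocalKahler k U) {z : V} (hz : z ∈ U) (u v : V) :
    Inv (fderiv ℝ (fderiv ℝ k) z u v) := fun a b => h.fderiv2_herm hz u v a b

theorem contDiffOn_Hd (h : LocalKahler k U) (hQ : IsOpen Q) (hγ : DifferentiableOn ℂ γ Q)
    (hm : MapsTo γ Q U) : ContDiffOn ℝ ∞ (Hd k γ) Q :=
  (Aop (V := V)).contDiff.comp_contDiffOn (h.smooth.comp (contDiffOn_disc hQ hγ) hm)

theorem re_inner_Hd (h : LocalKahler k U) (hm : MapsTo γ Q U) (hζ : ζ ∈ Q) (v w : V) :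
    (⟪v, Hd k γ ζ w⟫_ℂ).re = k (γ ζ) v w := re_inner_Aop (h.herm _ (hm hζ)) v w

theorem inner_Hd_symm (h : LocalKahler k U) (hm : MapsTo γ Q U) (hζ : ζ ∈ Q) (v w : V) :
    ⟪v, Hd k γ ζ w⟫_ℂ = ⟪Hd k γ ζ v, w⟫_ℂ := by
  rw [← inner_conj_symm (Hd k γ ζ v) w, Hd, inner_Aop (h.herm _ (hm hζ)),
    inner_Aop (h.herm _ (hm hζ))]
  have e1 := h.symm _ (hm hζ) v w
  have e2 := I_left h (hm hζ) w v
  have e3 := h.symm _ (hm hζ) (I • v) w
  apply Complex.ext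
  · simp [hf, e1]
  · simp [hf, e3, e2]

theorem re_inner_Hd_pos (h : LocalKahler k U) (hm : MapsTo γ Q U) (hζ : ζ ∈ Q) {v : V}
    (hv : v ≠ 0) : 0 < (⟪v, Hd k γ ζ v⟫_ℂ).re := by
  rw [re_inner_Hd h hm hζ]; exact h.pos _ (hm hζ) v hv

theorem isUnit_Hd (h : LocalKahler k U) (hm : MapsTo γ Q U) (hζ : ζ ∈ Q) :
    IsUnit (Hd k γ ζ) := by
  have hinj : Function.Injective (Hd k γ ζ : V →ₗ[ℂ] V) := by
    rw [injective_iff_map_eq_zero]
    intro v hv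
    by_contra hne
    have h1 := re_inner_Hd_pos h hm hζ hne
    have h2 : Hd k γ ζ v = 0 := hv
    rw [h2, inner_zero_right] at h1
    simp at h1
  set T := (LinearEquiv.ofInjectiveEndo _ hinj).toContinuousLinearEquiv with hT
  have : Hd k γ ζ = (T : V →L[ℂ] V) := by
    ext v
    simp only [hT]
    rfl
  rw [this]
  exact ⟨(ContinuousLinearEquiv.unitsEquiv ℂ V).symm T, rfl⟩

/-- first derivatives of the operator -/
theorem fderiv_Hd (h : LocalKahler k U) (hQ : IsOpen Q) (hγ : DifferentiableOn ℂ γ Q)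
    (hm : MapsTo γ Q U) (hζ : ζ ∈ Q) (c : ℂ) :
    fderiv ℝ (Hd k γ) ζ c = Aop (fderiv ℝ k (γ ζ) (c • deriv γ ζ)) := by
  have hk2 : ContDiffOn ℝ 2 k U := h.smooth.of_le two_le_infty
  have h1 : ContDiffOn ℝ ∞ (fun ζ => k (γ ζ)) Q := h.smooth.comp (contDiffOn_disc hQ hγ) hm
  have h2 : HasFDerivAt (fun ζ => k (γ ζ)) (fderiv ℝ (fun ζ => k (γ ζ)) ζ) ζ :=
    ((h1.contDiffAt (hQ.mem_nhds hζ)).differentiableAt (by simp)).hasFDerivAt
  have h3 : HasFDerivAt (Hd k γ) (Aop.comp (fderiv ℝ (fun ζ => k (γ ζ)) ζ)) ζ :=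
    (Aop (V := V)).hasFDerivAt.comp ζ h2
  rw [h3.fderiv, ContinuousLinearMap.comp_apply, fderiv_comp_disc h.isOpen hk2 hQ hγ hm hζ]

/-- the Laplacian of the operator -/
theorem laplace_Hd (h : LocalKahler k U) (hQ : IsOpen Q) (hγ : DifferentiableOn ℂ γ Q)
    (hm : MapsTo γ Q U) (hζ : ζ ∈ Q) :
    fderiv ℝ (fderiv ℝ (Hd k γ)) ζ 1 1 + fderiv ℝ (fderiv ℝ (Hd k γ)) ζ I I
      = Aop (fderiv ℝ (fderiv ℝ k) (γ ζ) (deriv γ ζ) (deriv γ ζ)
        + fderiv ℝ (fderiv ℝ k) (γ ζ) (I • deriv γ ζ) (I • deriv γ ζ)) := by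
  have hk2 : ContDiffOn ℝ 2 k U := h.smooth.of_le two_le_infty
  have h1 : ContDiffOn ℝ ∞ (fun ζ => k (γ ζ)) Q := h.smooth.comp (contDiffOn_disc hQ hγ) hm
  have h2 : ∀ y ∈ Q, fderiv ℝ (Hd k γ) y = Aop.comp (fderiv ℝ (fun ζ => k (γ ζ)) y) := by
    intro y hy
    have h2 : HasFDerivAt (fun ζ => k (γ ζ)) (fderiv ℝ (fun ζ => k (γ ζ)) y) y :=
      ((h1.contDiffAt (hQ.mem_nhds hy)).differentiableAt (by simp)).hasFDerivAt
    exact ((Aop (V := V)).hasFDerivAt.comp y h2).fderiv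
  have h4 : HasFDerivAt (fderiv ℝ (fun ζ => k (γ ζ))) (fderiv ℝ (fderiv ℝ (fun ζ => k (γ ζ))) ζ) ζ :=
    (((h1.fderiv_of_isOpen hQ (m := ∞) (by simp)).contDiffAt
      (hQ.mem_nhds hζ)).differentiableAt (by simp)).hasFDerivAt
  have h5 : fderiv ℝ (Hd k γ) =ᶠ[𝓝 ζ] fun y => Aop.comp (fderiv ℝ (fun ζ => k (γ ζ)) y) := by
    filter_upwards [hQ.mem_nhds hζ] with y hy using h2 y hy
  have h6 : HasFDerivAt (fun y => (Aop : (V →L[ℝ] V →L[ℝ] ℝ) →L[ℝ] (V →L[ℂ] V)).comp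
      (fderiv ℝ (fun ζ => k (γ ζ)) y))
      ((ContinuousLinearMap.compL ℝ ℂ (V →L[ℝ] V →L[ℝ] ℝ) (V →L[ℂ] V) Aop).comp
        (fderiv ℝ (fderiv ℝ (fun ζ => k (γ ζ))) ζ)) ζ :=
    (ContinuousLinearMap.compL ℝ ℂ (V →L[ℝ] V →L[ℝ] ℝ) (V →L[ℂ] V) Aop).hasFDerivAt.comp ζ h4
  rw [h5.fderiv_eq, h6.fderiv, ← laplace_comp_disc h.isOpen hk2 hQ hγ hm hζ, map_add]
  rfl

/-- `H_ζ a = H (Γ a)` -/
theorem Hd_chris (h : LocalKahler k U) (hQ : IsOpen Q) (hγ : DifferentiableOn ℂ γ Q)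
    (hm : MapsTo γ Q U) (hζ : ζ ∈ Q) (a : V) :
    fderiv ℝ (Hd k γ) ζ 1 a - I • fderiv ℝ (Hd k γ) ζ I a
      = (2 : ℝ) • Hd k γ ζ (chris k (γ ζ) (deriv γ ζ) a) := by
  apply ext_re_inner
  intro w
  rw [inner_sub_right, inner_smul_right, inner_smul_right_eq_smul, sub_re,
    fderiv_Hd h hQ hγ hm hζ, fderiv_Hd h hQ hγ hm hζ, one_smul,
    inner_Aop (inv_fderiv h (hm hζ) _), inner_Aop (inv_fderiv h (hm hζ) _)]
  rw [real_smul, re_ofReal_mul, re_inner_Hd h hm hζ]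
  have := h.fderiv_add_I (hm hζ) (deriv γ ζ) w a
  simp only [hf, add_re, ofReal_re, mul_re, I_re, I_im, ofReal_im, add_im, mul_im]
  linarith only [this]

end Vale.Agent.P253.R2.H384
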