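import Vale.Agent.P253.Bdl.B2
import Mathlib.Analysis.InnerProductSpace.PiL2

/-!
# Local Kähler metrics as operator valued functions

* `omegaL k` : the Kähler form of `k`, closed, antisymmetric;
* `Aop` : the complex operator on an inner product space of an `I`-invariant real bilinear form;
* `griffiths` : nonnegative bisectional curvature in terms of the operator and its inverse.
-/

open scoped ContDiff Topology InnerProductSpace
open Set Metric Complex Filter

set_option maxSynthPendingDepth 3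
set_option linter.all false

noncomputable section

namespace Vale.Agent.P253.R2.H384

open Mfd Mfd.LocalKahler

section form

variable {E : Type*} [NormedAddCommGroup E] [NormedSpace ℂ E]

variable (E) in
/-- multiplication by `I` as a real continuous linear map -/
def mulI : E →L[ℝ] E := (I • ContinuousLinearMap.id ℂ E).restrictScalars ℝ

@[simp] theorem mulI_apply (v : E) : mulI E v = I • v := rfl

/-- The Kähler form `ω(v, w) = k(I v, w)` of `k`. -/
def omegaL (k : E → E →L[ℝ] E →L[ℝ] ℝ) (z : E) : E →L[ℝ] E →L[ℝ] ℝ := (k z).comp (mulI E)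

@[simp] theorem omegaL_apply (k : E → E →L[ℝ] E →L[ℝ] ℝ) (z v w : E) :
    omegaL k z v w = k z (I • v) w := rfl

variable [FiniteDimensional ℂ E] {k : E → E →L[ℝ] E →L[ℝ] ℝ} {U : Set E} {z : E}

theorem I_left (h : LocalKahler k U) (hz : z ∈ U) (v w : E) :
    k z (I • v) w = -k z v (I • w) := by
  rw [← h.herm z hz v (I • w), smul_smul, I_mul_I, neg_one_smul, map_neg, neg_neg]

theorem omegaL_antisymm (h : LocalKahler k U) (hz : z ∈ U) (v w : E) :
    omegaL k z v w = -omegaL k z w v := by
  rw [omegaL_apply, omegaL_apply, I_left h hz, h.symm z hz v]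

theorem omegaL_self (h : LocalKahler k U) (hz : z ∈ U) (v : E) : omegaL k z v v = 0 := by
  have := omegaL_antisymm h hz v v
  linarith

theorem omegaL_I (h : LocalKahler k U) (hz : z ∈ U) (v : E) :
    omegaL k z v (I • v) = k z v v := by
  rw [omegaL_apply, h.herm z hz]

theorem contDiffOn_omegaL (h : LocalKahler k U) : ContDiffOn ℝ ∞ (omegaL k) U :=
  h.smooth.clm_comp contDiffOn_const

theorem fderiv_omegaL (h : LocalKahler k U) (hz : z ∈ U) (u v w : E) :
    fderiv ℝ (omegaL k) z u v w = fderiv ℝ k z u (I • v) w := by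
  have h1 : HasFDerivAt (omegaL k)
      ((((ContinuousLinearMap.compL ℝ E E (E →L[ℝ] ℝ)).flip (mulI E))).comp (fderiv ℝ k z)) z :=
    ((ContinuousLinearMap.compL ℝ E E (E →L[ℝ] ℝ)).flip (mulI E)).hasFDerivAt.comp z
      (h.differentiableAt hz).hasFDerivAt
  rw [h1.fderiv]
  rfl

/-- The Kähler form is closed. -/
theorem omegaL_closed (h : LocalKahler k U) (hz : z ∈ U) (u v w : E) :
    fderiv ℝ (omegaL k) z u v w + fderiv ℝ (omegaL k) z v w u
      + fderiv ℝ (omegaL k) z w u v = 0 := by
  rw [fderiv_omegaL h hz, fderiv_omegaL h hz, fderiv_omegaL h hz]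
  rw [h.fderiv_eq hz, h.fderiv_eq hz, h.fderiv_eq hz]
  rw [h.par z hz, h.par z hz, h.par z hz]
  rw [h.chris_symm hz v u, h.chris_symm hz w v, h.chris_symm hz w u]
  have e : ∀ x y : E, k z (I • x) y = -k z (I • y) x := fun x y => omegaL_antisymm h hz x y
  rw [e (chris k z u v) w, e v (chris k z u w), e (chris k z v w) u]
  ring

end form

section operator

variable {V : Type*} [NormedAddCommGroup V] [InnerProductSpace ℂ V] [FiniteDimensional ℂ V]

/-- `h(v, w) = k(v, w) + i k(i v, w)` -/
def hf (k : V →L[ℝ] V →L[ℝ] ℝ) (v w : V) : ℂ := k v w + I * k (I • v) w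

theorem hf_add_left (k : V →L[ℝ] V →L[ℝ] ℝ) (v v' w : V) :
    hf k (v + v') w = hf k v w + hf k v' w := by
  simp only [hf, smul_add, map_add, add_apply, ofReal_add]; ring

theorem hf_add_right (k : V →L[ℝ] V →L[ℝ] ℝ) (v w w' : V) :
    hf k v (w + w') = hf k v w + hf k v w' := by
  simp only [hf, map_add, ofReal_add]; ring

theorem hf_smul_left (k : V →L[ℝ] V →L[ℝ] ℝ) (c : ℂ) (v w : V) :
    hf k (c • v) w = (starRingEnd ℂ) c * hf k v w := by
  have e1 : c • v = c.re • v + c.im • (I • v) := by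
    conv_lhs => rw [← re_add_im c]
    rw [add_smul, mul_smul]; rfl
  have e2 : I • (c • v) = c.re • (I • v) - c.im • v := by
    rw [e1, smul_add, smul_comm I c.re v, smul_comm I c.im (I • v), smul_smul I I, I_mul_I,
      neg_one_smul, smul_neg, sub_eq_add_neg]
  rw [hf, e2, e1]
  simp only [hf]
  apply Complex.ext
  · simp only [map_add, map_sub, map_smul, add_apply, sub_apply, smul_apply,
      smul_eq_mul, add_re, mul_re, ofReal_re, ofReal_im, I_re, I_im, conj_re, conj_im, mul_im,
      add_im]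
    ring
  · simp only [map_add, map_sub, map_smul, add_apply, sub_apply, smul_apply,
      smul_eq_mul, add_re, mul_re, ofReal_re, ofReal_im, I_re, I_im, conj_re, conj_im, mul_im,
      add_im]
    ring

/-- `k` is invariant under multiplication by `I`. -/
def Inv (k : V →L[ℝ] V →L[ℝ] ℝ) : Prop := ∀ v w, k (I • v) (I • w) = k v w

theorem Inv.I_right {k : V →L[ℝ] V →L[ℝ] ℝ} (hk : Inv k) (v w : V) :
    k v (I • w) = -k (I • v) w := by
  rw [← hk v (I • w), smul_smul, I_mul_I, neg_one_smul, map_neg]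

theorem hf_smul_right {k : V →L[ℝ] V →L[ℝ] ℝ} (hk : Inv k) (c : ℂ) (v w : V) :
    hf k v (c • w) = c * hf k v w := by
  have e1 : c • w = c.re • w + c.im • (I • w) := by
    conv_lhs => rw [← re_add_im c]
    rw [add_smul, mul_smul]; rfl
  have e3 := hk.I_right v w
  have e4 : k (I • v) (I • w) = k v w := hk v w
  apply Complex.ext
  · simp only [hf, e1, map_add, map_smul, add_apply, smul_apply, e3, e4,
      smul_eq_mul, add_re, mul_re, ofReal_re, ofReal_im, I_re, I_im, mul_im, add_im]
    ring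
  · simp only [hf, e1, map_add, map_smul, add_apply, smul_apply, e3, e4,
      smul_eq_mul, add_re, mul_re, ofReal_re, ofReal_im, I_re, I_im, mul_im, add_im]
    ring

/-- The complex operator of a real bilinear form, as a linear map. -/
def AopL : (V →L[ℝ] V →L[ℝ] ℝ) →ₗ[ℝ] (V →L[ℂ] V) where
  toFun k := ∑ j, ∑ l, (hf k (stdOrthonormalBasis ℂ V j) (stdOrthonormalBasis ℂ V l)) •
    (innerSL ℂ (stdOrthonormalBasis ℂ V l)).smulRight (stdOrthonormalBasis ℂ V j)
  map_add' k k' := by
    rw [← Finset.sum_add_distrib]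
    refine Finset.sum_congr rfl fun j _ => ?_
    rw [← Finset.sum_add_distrib]
    refine Finset.sum_congr rfl fun l _ => ?_
    rw [← add_smul]
    congr 1
    simp only [hf, add_apply, ofReal_add]; ring
  map_smul' c k := by
    rw [Finset.smul_sum]
    refine Finset.sum_congr rfl fun j _ => ?_
    rw [Finset.smul_sum]
    refine Finset.sum_congr rfl fun l _ => ?_
    rw [RingHom.id_apply, ← smul_assoc]
    congr 1
    simp only [hf, smul_apply, smul_eq_mul, ofReal_mul, real_smul]; ring

instance : FiniteDimensional ℝ V := FiniteDimensional.complexToReal V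

/-- The complex operator of a real bilinear form. -/
def Aop : (V →L[ℝ] V →L[ℝ] ℝ) →L[ℝ] (V →L[ℂ] V) := LinearMap.toContinuousLinearMap AopL

theorem inner_Aop {k : V →L[ℝ] V →L[ℝ] ℝ} (hk : Inv k) (v w : V) :
    ⟪v, Aop k w⟫_ℂ = hf k v w := by
  set b := stdOrthonormalBasis ℂ V
  have h1 : Aop k w = ∑ j, ∑ l, (hf k (b j) (b l)) • (⟪b l, w⟫_ℂ • b j) := by
    change AopL k w = _
    simp only [AopL, LinearMap.coe_mk, AddHom.coe_mk, sum_apply, smul_apply,
      ContinuousLinearMap.smulRight_apply, innerSL_apply_apply]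
    rfl
  have h2 : hf k v w = ∑ j, ∑ l, (starRingEnd ℂ) ⟪b j, v⟫_ℂ * (⟪b l, w⟫_ℂ * hf k (b j) (b l)) := by
    have e1 : ∀ w, hf k v w = ∑ j, (starRingEnd ℂ) ⟪b j, v⟫_ℂ * hf k (b j) w := by
      intro w
      conv_lhs => rw [← b.sum_repr' v]
      have : ∀ s : Finset (Fin (Module.finrank ℂ V)), hf k (∑ j ∈ s, ⟪b j, v⟫_ℂ • b j) w
          = ∑ j ∈ s, (starRingEnd ℂ) ⟪b j, v⟫_ℂ * hf k (b j) w := by
        intro s
        induction s using Finset.induction_on with
        | empty => simp [hf]
        | insert a s ha ih => rw [Finset.sum_insert ha, Finset.sum_insert ha, hf_add_left, ih,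
            hf_smul_left]
      exact this _
    rw [e1 w]
    refine Finset.sum_congr rfl fun j _ => ?_
    rw [← Finset.mul_sum]
    congr 1
    conv_lhs => rw [← b.sum_repr' w]
    have : ∀ s : Finset (Fin (Module.finrank ℂ V)), hf k (b j) (∑ l ∈ s, ⟪b l, w⟫_ℂ • b l)
        = ∑ l ∈ s, ⟪b l, w⟫_ℂ * hf k (b j) (b l) := by
      intro s
      induction s using Finset.induction_on with
      | empty => simp [hf]
      | insert a s ha ih => rw [Finset.sum_insert ha, Finset.sum_insert ha, hf_add_right, ih,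
          hf_smul_right hk]
    exact this _
  rw [h1, h2, inner_sum]
  refine Finset.sum_congr rfl fun j _ => ?_
  rw [inner_sum]
  refine Finset.sum_congr rfl fun l _ => ?_
  rw [inner_smul_right, inner_smul_right, inner_conj_symm]
  ring

theorem re_inner_Aop {k : V →L[ℝ] V →L[ℝ] ℝ} (hk : Inv k) (v w : V) :
    (⟪v, Aop k w⟫_ℂ).re = k v w := by
  rw [inner_Aop hk]; simp [hf]

theorem ext_re_inner {x y : V} (h : ∀ w : V, (⟪w, x⟫_ℂ).re = (⟪w, y⟫_ℂ).re) : x = y := by
  have h1 := h (x - y)
  have h2 : (⟪x - y, x - y⟫_ℂ).re = 0 := by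
    rw [inner_sub_right, sub_re]; linarith
  have h3 : ⟪x - y, x - y⟫_ℂ = (0 : ℂ) := by
    have h4 := inner_self_eq_norm_sq_to_K (𝕜 := ℂ) (x - y)
    rw [h4] at h2 ⊢
    have h5 : ‖x - y‖ ^ 2 = 0 := by
      have : ((‖x - y‖ : ℂ) ^ 2).re = ‖x - y‖ ^ 2 := by
        rw [← ofReal_pow, ofReal_re]
      have h6 : (((‖x - y‖ : ℝ) : ℂ) ^ 2).re = 0 := h2
      linarith
    have h7 : ‖x - y‖ = 0 := by simpa using h5
    simp [h7]
  exact sub_eq_zero.1 (inner_self_eq_zero.1 h3)

end operator

end Vale.Agent.P253.R2.H384
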