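import Vale.Agent.P253.R2.H384.Disc
import Mathlib.Analysis.Calculus.ContDiff.Operations

/-!
# The Griffiths inequality along holomorphic discs
-/

open scoped ContDiff Topology InnerProductSpace
open Set Metric Complex Filter

set_option maxSynthPendingDepth 3
set_option linter.all false

noncomputable section

namespace Vale.Agent.P253.R2.H384

open Mfd Mfd.LocalKahler

section inverse

variable {R : Type*} [NormedRing R] [NormedAlgebra ℝ R] {Q : Set ℂ} {A B : ℂ → R} {ζ : ℂ}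

theorem hasFDerivAt_mul_apply {A' B' : ℂ →L[ℝ] R} (hA : HasFDerivAt A A' ζ)
    (hB : HasFDerivAt B B' ζ) :
    ∃ T : ℂ →L[ℝ] R, HasFDerivAt (fun y => A y * B y) T ζ ∧
      ∀ c, T c = A ζ * B' c + A' c * B ζ := by
  refine ⟨_, hA.mul' hB, fun c => ?_⟩
  simp

theorem fderiv_mul_apply' (hA : DifferentiableAt ℝ A ζ) (hB : DifferentiableAt ℝ B ζ) (c : ℂ) :
    fderiv ℝ (fun y => A y * B y) ζ c = A ζ * fderiv ℝ B ζ c + fderiv ℝ A ζ c * B ζ := by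
  obtain ⟨T, hT, hc⟩ := hasFDerivAt_mul_apply hA.hasFDerivAt hB.hasFDerivAt
  rw [hT.fderiv, hc]

theorem hasFDerivAt_fderiv_apply' (hA : DifferentiableAt ℝ (fderiv ℝ A) ζ) (c : ℂ) :
    HasFDerivAt (fun y => fderiv ℝ A y c) ((fderiv ℝ (fderiv ℝ A) ζ).flip c) ζ := by
  have := hA.hasFDerivAt.clm_apply (hasFDerivAt_const c ζ)
  convert! this using 1
  ext u <;> simp

theorem fderiv2_mul_apply' (hQ : IsOpen Q) (hA : ContDiffOn ℝ 2 A Q) (hB : ContDiffOn ℝ 2 B Q)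
    (hζ : ζ ∈ Q) (c : ℂ) :
    fderiv ℝ (fderiv ℝ (fun y => A y * B y)) ζ c c
      = A ζ * fderiv ℝ (fderiv ℝ B) ζ c c + (2 : ℝ) • (fderiv ℝ A ζ c * fderiv ℝ B ζ c)
        + fderiv ℝ (fderiv ℝ A) ζ c c * B ζ := by
  have hd1 : ∀ y ∈ Q, DifferentiableAt ℝ A y := fun y hy =>
    (hA.contDiffAt (hQ.mem_nhds hy)).differentiableAt (by simp)
  have hd2 : ∀ y ∈ Q, DifferentiableAt ℝ B y := fun y hy =>
    (hB.contDiffAt (hQ.mem_nhds hy)).differentiableAt (by simp)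
  have hA1 : DifferentiableAt ℝ (fderiv ℝ A) ζ :=
    ((hA.fderiv_of_isOpen hQ (m := 1) (by norm_num)).contDiffAt
      (hQ.mem_nhds hζ)).differentiableAt (by simp)
  have hB1 : DifferentiableAt ℝ (fderiv ℝ B) ζ :=
    ((hB.fderiv_of_isOpen hQ (m := 1) (by norm_num)).contDiffAt
      (hQ.mem_nhds hζ)).differentiableAt (by simp)
  have hAB1 : DifferentiableAt ℝ (fderiv ℝ (fun y => A y * B y)) ζ :=
    (((hA.mul hB).fderiv_of_isOpen hQ (m := 1) (by norm_num)).contDiffAt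
      (hQ.mem_nhds hζ)).differentiableAt (by simp)
  have e1 := hasFDerivAt_fderiv_apply' hAB1 c
  have e2 : (fun y => fderiv ℝ (fun y => A y * B y) y c) =ᶠ[𝓝 ζ]
      (fun y => A y * fderiv ℝ B y c + fderiv ℝ A y c * B y) := by
    filter_upwards [hQ.mem_nhds hζ] with y hy using fderiv_mul_apply' (hd1 y hy) (hd2 y hy) c
  obtain ⟨T1, hT1, hc1⟩ := hasFDerivAt_mul_apply (hd1 ζ hζ).hasFDerivAt
    (hasFDerivAt_fderiv_apply' hB1 c)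
  obtain ⟨T2, hT2, hc2⟩ := hasFDerivAt_mul_apply (hasFDerivAt_fderiv_apply' hA1 c)
    (hd2 ζ hζ).hasFDerivAt
  have e3 := (e1.congr_of_eventuallyEq e2.symm).unique (hT1.add hT2)
  have e4 := congrArg (fun T => T c) e3
  simp only [ContinuousLinearMap.flip_apply, add_apply, hc1, hc2] at e4
  rw [e4, two_smul]
  abel

/-- derivatives of the inverse -/
theorem fderiv_inverse (hQ : IsOpen Q) (hA : ContDiffOn ℝ 2 A Q) (hB : ContDiffOn ℝ 2 B Q)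
    (hAB : ∀ y ∈ Q, A y * B y = 1) (hBA : ∀ y ∈ Q, B y * A y = 1) (hζ : ζ ∈ Q) (c : ℂ) :
    fderiv ℝ A ζ c = -(A ζ * fderiv ℝ B ζ c * A ζ) := by
  have hd1 : DifferentiableAt ℝ A ζ :=
    (hA.contDiffAt (hQ.mem_nhds hζ)).differentiableAt (by simp)
  have hd2 : DifferentiableAt ℝ B ζ :=
    (hB.contDiffAt (hQ.mem_nhds hζ)).differentiableAt (by simp)
  have h1 : (fun y => A y * B y) =ᶠ[𝓝 ζ] fun _ => 1 := by
    filter_upwards [hQ.mem_nhds hζ] with y hy using hAB y hy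
  have h2 := fderiv_mul_apply' hd1 hd2 c
  rw [h1.fderiv_eq, fderiv_fun_const] at h2
  have h3 : fderiv ℝ A ζ c * B ζ = -(A ζ * fderiv ℝ B ζ c) := by
    have : (0 : R) = A ζ * fderiv ℝ B ζ c + fderiv ℝ A ζ c * B ζ := h2
    rw [eq_neg_iff_add_eq_zero, add_comm]; exact this.symm
  have h4 : fderiv ℝ A ζ c * B ζ * A ζ = -(A ζ * fderiv ℝ B ζ c) * A ζ := by rw [h3]
  rw [mul_assoc, hBA ζ hζ, mul_one] at h4
  rw [h4, neg_mul]

theorem fderiv2_inverse (hQ : IsOpen Q) (hA : ContDiffOn ℝ 2 A Q) (hB : ContDiffOn ℝ 2 B Q)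
    (hAB : ∀ y ∈ Q, A y * B y = 1) (hBA : ∀ y ∈ Q, B y * A y = 1) (hζ : ζ ∈ Q) (c : ℂ) :
    fderiv ℝ (fderiv ℝ A) ζ c c = (2 : ℝ) • (A ζ * fderiv ℝ B ζ c * A ζ * fderiv ℝ B ζ c * A ζ)
      - A ζ * fderiv ℝ (fderiv ℝ B) ζ c c * A ζ := by
  have h1 : (fun y => A y * B y) =ᶠ[𝓝 ζ] fun _ => 1 := by
    filter_upwards [hQ.mem_nhds hζ] with y hy using hAB y hy
  have h2 := fderiv2_mul_apply' hQ hA hB hζ c
  have h0 : fderiv ℝ (fderiv ℝ (fun y => A y * B y)) ζ c c = 0 := by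
    have : fderiv ℝ (fun y => A y * B y) =ᶠ[𝓝 ζ] fun _ => 0 := by
      filter_upwards [h1.eventuallyEq_nhds] with y hy
      rw [hy.fderiv_eq, fderiv_fun_const]; rfl
    rw [this.fderiv_eq, fderiv_fun_const]; rfl
  rw [h0, fderiv_inverse hQ hA hB hAB hBA hζ c] at h2
  have h3 : fderiv ℝ (fderiv ℝ A) ζ c c * B ζ = (2 : ℝ) • (A ζ * fderiv ℝ B ζ c * A ζ *
      fderiv ℝ B ζ c) - A ζ * fderiv ℝ (fderiv ℝ B) ζ c c := by
    rw [neg_mul, smul_neg] at h2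
    rw [eq_sub_iff_add_eq, ← sub_eq_zero, h2]
    abel
  have h4 : fderiv ℝ (fderiv ℝ A) ζ c c * B ζ * A ζ = ((2 : ℝ) • (A ζ * fderiv ℝ B ζ c * A ζ *
      fderiv ℝ B ζ c) - A ζ * fderiv ℝ (fderiv ℝ B) ζ c c) * A ζ := by rw [h3]
  rw [mul_assoc, hBA ζ hζ, mul_one] at h4
  rw [h4, sub_mul, smul_mul_assoc]

end inverse

variable {V : Type*} [NormedAddCommGroup V] [InnerProductSpace ℂ V] [FiniteDimensional ℂ V]
  {k : V → V →L[ℝ] V →L[ℝ] ℝ} {U : Set V} {γ : ℂ → V} {Q : Set ℂ} {ζ : ℂ}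

/-- The inverse of the metric along a disc (the metric of the dual bundle). -/
def Gd (k : V → V →L[ℝ] V →L[ℝ] ℝ) (γ : ℂ → V) (ζ : ℂ) : V →L[ℂ] V := Ring.inverse (Hd k γ ζ)

theorem Gd_mul_Hd (h : LocalKahler k U) (hm : MapsTo γ Q U) (hζ : ζ ∈ Q) :
    Gd k γ ζ * Hd k γ ζ = 1 := Ring.inverse_mul_cancel _ (isUnit_Hd h hm hζ)

theorem Hd_mul_Gd (h : LocalKahler k U) (hm : MapsTo γ Q U) (hζ : ζ ∈ Q) :
    Hd k γ ζ * Gd k γ ζ = 1 := Ring.mul_inverse_cancel _ (isUnit_Hd h hm hζ)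

theorem Gd_Hd (h : LocalKahler k U) (hm : MapsTo γ Q U) (hζ : ζ ∈ Q) (v : V) :
    Gd k γ ζ (Hd k γ ζ v) = v := congrArg (fun T : V →L[ℂ] V => T v) (Gd_mul_Hd h hm hζ)

theorem Hd_Gd (h : LocalKahler k U) (hm : MapsTo γ Q U) (hζ : ζ ∈ Q) (v : V) :
    Hd k γ ζ (Gd k γ ζ v) = v := congrArg (fun T : V →L[ℂ] V => T v) (Hd_mul_Gd h hm hζ)

theorem contDiffOn_Gd (h : LocalKahler k U) (hQ : IsOpen Q) (hγ : DifferentiableOn ℂ γ Q)
    (hm : MapsTo γ Q U) : ContDiffOn ℝ ∞ (Gd k γ) Q := by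
  have : CompleteSpace V := FiniteDimensional.complete ℂ V
  intro ζ hζ
  obtain ⟨T, hT⟩ := isUnit_Hd h hm hζ
  have h1 : ContDiffAt ℝ ∞ Ring.inverse (Hd k γ ζ) := by
    rw [← hT]; exact contDiffAt_ringInverse ℝ T
  exact (h1.comp ζ ((contDiffOn_Hd h hQ hγ hm).contDiffAt (hQ.mem_nhds hζ))).contDiffWithinAt

theorem inner_Gd_symm (h : LocalKahler k U) (hm : MapsTo γ Q U) (hζ : ζ ∈ Q) (v w : V) :
    ⟪v, Gd k γ ζ w⟫_ℂ = ⟪Gd k γ ζ v, w⟫_ℂ := by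
  conv_lhs => rw [← Hd_Gd h hm hζ v]
  rw [← inner_Hd_symm h hm hζ, Hd_Gd h hm hζ]

theorem re_inner_Gd_eq (h : LocalKahler k U) (hm : MapsTo γ Q U) (hζ : ζ ∈ Q) (v : V) :
    (⟪v, Gd k γ ζ v⟫_ℂ).re = k (γ ζ) (Gd k γ ζ v) (Gd k γ ζ v) := by
  rw [← re_inner_Hd h hm hζ, Hd_Gd h hm hζ, inner_Gd_symm h hm hζ]

theorem re_inner_Gd_pos (h : LocalKahler k U) (hm : MapsTo γ Q U) (hζ : ζ ∈ Q) {v : V}
    (hv : v ≠ 0) : 0 < (⟪v, Gd k γ ζ v⟫_ℂ).re := by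
  rw [re_inner_Gd_eq h hm hζ]
  refine h.pos _ (hm hζ) _ (fun h0 => hv ?_)
  rw [← Hd_Gd h hm hζ v, h0, map_zero]

theorem re_inner_Gd_nonneg (h : LocalKahler k U) (hm : MapsTo γ Q U) (hζ : ζ ∈ Q) (v : V) :
    0 ≤ (⟪v, Gd k γ ζ v⟫_ℂ).re := by
  rcases eq_or_ne v 0 with rfl | hv
  · simp
  · exact (re_inner_Gd_pos h hm hζ hv).le

theorem symm_fderiv_Hd (h : LocalKahler k U) (hQ : IsOpen Q) (hγ : DifferentiableOn ℂ γ Q)
    (hm : MapsTo γ Q U) (hζ : ζ ∈ Q) (c : ℂ) (v w : V) :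
    (⟪v, fderiv ℝ (Hd k γ) ζ c w⟫_ℂ).re = (⟪fderiv ℝ (Hd k γ) ζ c v, w⟫_ℂ).re := by
  have e : (⟪fderiv ℝ (Hd k γ) ζ c v, w⟫_ℂ).re = (⟪w, fderiv ℝ (Hd k γ) ζ c v⟫_ℂ).re := by
    rw [← inner_conj_symm w, conj_re]
  rw [e, fderiv_Hd h hQ hγ hm hζ, re_inner_Aop (inv_fderiv h (hm hζ) _),
    re_inner_Aop (inv_fderiv h (hm hζ) _), h.fderiv_symm (hm hζ)]

/-- **Griffiths inequality** for the dual metric along a holomorphic disc:
`⟨b, G_{ζ ζbar} b⟩ + 2 Re ⟨c, G_{ζbar} b⟩ + ⟨c, G c⟩ ≥ 0`. -/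
theorem griffiths (h : LocalKahler k U) (hR : ∀ z ∈ U, ∀ X a, 0 ≤ Rc k z X a) (hQ : IsOpen Q)
    (hγ : DifferentiableOn ℂ γ Q) (hm : MapsTo γ Q U) (hζ : ζ ∈ Q) (b c : V) :
    0 ≤ (⟪b, fderiv ℝ (fderiv ℝ (Gd k γ)) ζ 1 1 b
            + fderiv ℝ (fderiv ℝ (Gd k γ)) ζ I I b⟫_ℂ).re / 4
      + (⟪c, fderiv ℝ (Gd k γ) ζ 1 b + I • fderiv ℝ (Gd k γ) ζ I b⟫_ℂ).re
      + (⟪c, Gd k γ ζ c⟫_ℂ).re := by
  have hG2 : ContDiffOn ℝ 2 (Gd k γ) Q := (contDiffOn_Gd h hQ hγ hm).of_le two_le_infty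
  have hH2 : ContDiffOn ℝ 2 (Hd k γ) Q := (contDiffOn_Hd h hQ hγ hm).of_le two_le_infty
  have hGH : ∀ y ∈ Q, Gd k γ y * Hd k γ y = 1 := fun y hy => Gd_mul_Hd h hm hy
  have hHG : ∀ y ∈ Q, Hd k γ y * Gd k γ y = 1 := fun y hy => Hd_mul_Gd h hm hy
  set G0 := Gd k γ ζ with hG0
  set Hx := fderiv ℝ (Hd k γ) ζ 1 with hHx
  set Hy := fderiv ℝ (Hd k γ) ζ I with hHy
  have g1 : ∀ c : ℂ, fderiv ℝ (Gd k γ) ζ c = -(G0 * fderiv ℝ (Hd k γ) ζ c * G0) :=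
    fun c => fderiv_inverse hQ hG2 hH2 hGH hHG hζ c
  have g2 : ∀ c : ℂ, fderiv ℝ (fderiv ℝ (Gd k γ)) ζ c c
      = (2 : ℝ) • (G0 * fderiv ℝ (Hd k γ) ζ c * G0 * fderiv ℝ (Hd k γ) ζ c * G0)
      - G0 * fderiv ℝ (fderiv ℝ (Hd k γ)) ζ c c * G0 :=
    fun c => fderiv2_inverse hQ hG2 hH2 hGH hHG hζ c
  set a := G0 b with ha
  set x := Hx a with hx
  set y := Hy a with hy
  have hsG : ∀ v w : V, ⟪v, G0 w⟫_ℂ = ⟪G0 v, w⟫_ℂ := fun v w => inner_Gd_symm h hm hζ v w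
  -- the quadratic form
  set q : V → ℝ := fun v => (⟪v, G0 v⟫_ℂ).re with hq
  have hq0 : ∀ v, 0 ≤ q v := fun v => re_inner_Gd_nonneg h hm hζ v
  -- Laplacian of `H`
  set L := fderiv ℝ (fderiv ℝ (Hd k γ)) ζ 1 1 + fderiv ℝ (fderiv ℝ (Hd k γ)) ζ I I with hL
  have hLa : (⟪a, L a⟫_ℂ).re ≤ q (x - I • y) := by
    have e1 := laplace_Hd h hQ hγ hm hζ
    have e2 : (⟪a, L a⟫_ℂ).re = fderiv ℝ (fderiv ℝ k) (γ ζ) (deriv γ ζ) (deriv γ ζ) a a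
        + fderiv ℝ (fderiv ℝ k) (γ ζ) (I • deriv γ ζ) (I • deriv γ ζ) a a := by
      rw [hL, e1, re_inner_Aop ((inv_levi h (hm hζ) _ _).add (inv_levi h (hm hζ) _ _))]
      rfl
    have e3 := hR (γ ζ) (hm hζ) (deriv γ ζ) a
    rw [Rc] at e3
    set Γa := chris k (γ ζ) (deriv γ ζ) a with hΓ
    have e4 : x - I • y = (2 : ℝ) • Hd k γ ζ Γa := Hd_chris h hQ hγ hm hζ a
    have e5 : q (x - I • y) = 4 * k (γ ζ) Γa Γa := by
      simp only [hq]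
      rw [e4, ← re_inner_Hd h hm hζ]
      have e6 : G0 ((2 : ℝ) • Hd k γ ζ Γa) = (2 : ℝ) • Γa := by
        have : (2 : ℝ) • Hd k γ ζ Γa = Hd k γ ζ ((2 : ℂ) • Γa) := by
          rw [map_smul, ← coe_smul]; norm_num
        rw [this, hG0, Gd_Hd h hm hζ, ← coe_smul]; norm_num
      rw [e6, ← coe_smul, ← coe_smul, inner_smul_left, inner_smul_right, conj_ofReal,
        re_ofReal_mul, re_ofReal_mul]
      rw [← inner_conj_symm Γa, conj_re]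
      ring
    rw [e2, e5]
    linarith only [e3]
  -- rewriting the three terms
  have t1 : (⟪b, fderiv ℝ (fderiv ℝ (Gd k γ)) ζ 1 1 b
            + fderiv ℝ (fderiv ℝ (Gd k γ)) ζ I I b⟫_ℂ).re
      = 2 * q x + 2 * q y - (⟪a, L a⟫_ℂ).re := by
    have e1 : ∀ c : ℂ, (⟪b, fderiv ℝ (fderiv ℝ (Gd k γ)) ζ c c b⟫_ℂ).re
        = 2 * q (fderiv ℝ (Hd k γ) ζ c a) - (⟪a, fderiv ℝ (fderiv ℝ (Hd k γ)) ζ c c a⟫_ℂ).re := by
      intro c
      rw [g2 c]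
      have e2 : ((2 : ℝ) • (G0 * fderiv ℝ (Hd k γ) ζ c * G0 * fderiv ℝ (Hd k γ) ζ c * G0)
          - G0 * fderiv ℝ (fderiv ℝ (Hd k γ)) ζ c c * G0) b
          = (2 : ℝ) • G0 (fderiv ℝ (Hd k γ) ζ c (G0 (fderiv ℝ (Hd k γ) ζ c a)))
            - G0 (fderiv ℝ (fderiv ℝ (Hd k γ)) ζ c c a) := rfl
      rw [e2, inner_sub_right, sub_re, ← coe_smul, inner_smul_right, re_ofReal_mul, hsG, hsG,
        symm_fderiv_Hd h hQ hγ hm hζ]
    rw [inner_add_right, add_re, e1 1, e1 I, hL, add_apply, inner_add_right, add_re]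
    ring
  have t2 : fderiv ℝ (Gd k γ) ζ 1 b + I • fderiv ℝ (Gd k γ) ζ I b = -G0 (x + I • y) := by
    rw [g1, g1]
    have e1 : (-(G0 * fderiv ℝ (Hd k γ) ζ 1 * G0)) b = -G0 x := rfl
    have e2 : (-(G0 * fderiv ℝ (Hd k γ) ζ I * G0)) b = -G0 y := rfl
    rw [e1, e2, map_add, map_smul, smul_neg, neg_add]
  -- parallelogram identity
  have hpar : q (x - I • y) + q (x + I • y) = 2 * q x + 2 * q y := by
    simp only [hq, map_add, map_sub, inner_sub_left, inner_sub_right, inner_add_left,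
      inner_add_right, sub_re, add_re, map_smul, inner_smul_left, inner_smul_right, conj_I,
      mul_re, mul_im, sub_im, add_im, I_re, I_im, neg_re, neg_im]
    ring
  -- completing the square
  have hsq : q (c - (1 / 2 : ℝ) • (x + I • y)) = q c - (⟪c, G0 (x + I • y)⟫_ℂ).re
      + q (x + I • y) / 4 := by
    set u := x + I • y with hu
    simp only [hq]
    have e1 : (⟪u, G0 c⟫_ℂ).re = (⟪c, G0 u⟫_ℂ).re := by
      rw [hsG, ← inner_conj_symm, conj_re]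
    rw [← coe_smul, map_sub, map_smul, inner_sub_left, inner_sub_right, inner_sub_right,
      inner_smul_left, inner_smul_left, inner_smul_right, inner_smul_right, conj_ofReal]
    simp only [sub_re, re_ofReal_mul]
    rw [e1]
    ring
  have hfin := hq0 (c - (1 / 2 : ℝ) • (x + I • y))
  rw [hsq] at hfin
  rw [t1, t2, inner_neg_right, neg_re]
  have e9 : (⟪c, G0 c⟫_ℂ).re = q c := rfl
  rw [e9]
  linarith only [hfin, hpar, hLa]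

/-- the dual metric is subharmonic along discs -/
theorem laplace_Gd_nonneg (h : LocalKahler k U) (hR : ∀ z ∈ U, ∀ X a, 0 ≤ Rc k z X a)
    (hQ : IsOpen Q) (hγ : DifferentiableOn ℂ γ Q) (hm : MapsTo γ Q U) (hζ : ζ ∈ Q) (b : V) :
    0 ≤ (⟪b, fderiv ℝ (fderiv ℝ (Gd k γ)) ζ 1 1 b
            + fderiv ℝ (fderiv ℝ (Gd k γ)) ζ I I b⟫_ℂ).re := by
  have := griffiths h hR hQ hγ hm hζ b 0
  simp only [inner_zero_left, zero_re, add_zero] at this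
  linarith

end Vale.Agent.P253.R2.H384
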