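import Vale.Agent.P253.R2.H384.Griffiths

/-!
# Pull back of a Kähler metric by an étale holomorphic map `Φ : V → M`
-/

open scoped Manifold ContDiff Topology Bundle
open Set Metric Complex Filter Bundle IsManifold

set_option maxSynthPendingDepth 3
set_option linter.all false

noncomputable section

namespace Vale.Agent.P253.R2.H384

open Mfd Mfd.LocalKahler

section local_

variable {E : Type*} [NormedAddCommGroup E] [NormedSpace ℂ E] [FiniteDimensional ℂ E]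
  {k k' : E → E →L[ℝ] E →L[ℝ] ℝ} {U W : Set E} {z : E}

theorem koszulL_congr (hW : IsOpen W) (hk : EqOn k k' W) (hz : z ∈ W) :
    koszulL k z = koszulL k' z := by
  have h1 : k =ᶠ[𝓝 z] k' := by filter_upwards [hW.mem_nhds hz] with y hy using hk hy
  simp only [koszulL, h1.fderiv_eq]

theorem chris_congr (hW : IsOpen W) (hk : EqOn k k' W) (hz : z ∈ W) :
    chris k z = chris k' z := by
  simp only [chris, koszulL_congr hW hk hz, hk hz]

theorem Rc_congr (hW : IsOpen W) (hk : EqOn k k' W) (hz : z ∈ W) (X a : E) :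
    Rc k z X a = Rc k' z X a := by
  have h1 : k =ᶠ[𝓝 z] k' := by filter_upwards [hW.mem_nhds hz] with y hy using hk hy
  have h2 : fderiv ℝ k =ᶠ[𝓝 z] fderiv ℝ k' := by
    filter_upwards [h1.eventuallyEq_nhds] with y hy using hy.fderiv_eq
  simp only [Rc, chris_congr hW hk hz, hk hz, h2.fderiv_eq]

theorem localKahler_of_local (hU : IsOpen U)
    (h : ∀ z ∈ U, ∃ W k', z ∈ W ∧ LocalKahler k' W ∧ EqOn k k' W) : LocalKahler k U := by
  refine ⟨hU, ?_, ?_, ?_, ?_, ?_⟩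
  · intro z hz
    obtain ⟨W, k', hzW, hk', hkk⟩ := h z hz
    have h1 : k =ᶠ[𝓝 z] k' := by
      filter_upwards [hk'.isOpen.mem_nhds hzW] with y hy using hkk hy
    exact ((hk'.smooth.contDiffAt (hk'.isOpen.mem_nhds hzW)).congr_of_eventuallyEq
      h1).contDiffWithinAt
  · intro z hz v w
    obtain ⟨W, k', hzW, hk', hkk⟩ := h z hz
    rw [hkk hzW]; exact hk'.symm z hzW v w
  · intro z hz v hv
    obtain ⟨W, k', hzW, hk', hkk⟩ := h z hz
    rw [hkk hzW]; exact hk'.pos z hzW v hv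
  · intro z hz v w
    obtain ⟨W, k', hzW, hk', hkk⟩ := h z hz
    rw [hkk hzW]; exact hk'.herm z hzW v w
  · intro z hz u v
    obtain ⟨W, k', hzW, hk', hkk⟩ := h z hz
    rw [chris_congr hk'.isOpen hkk hzW]; exact hk'.par z hzW u v

end local_

section linear

variable {E : Type*} [NormedAddCommGroup E] [NormedSpace ℂ E] [FiniteDimensional ℂ E]
  {V : Type*} [NormedAddCommGroup V] [NormedSpace ℂ V] [FiniteDimensional ℂ V]
  {k : E → E →L[ℝ] E →L[ℝ] ℝ} {U : Set E} {z : V}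

/-- linear pull back of a bilinear form, as a continuous linear map -/
def linB (L : V ≃L[ℂ] E) : (E →L[ℝ] E →L[ℝ] ℝ) →L[ℝ] (V →L[ℝ] V →L[ℝ] ℝ) :=
  let L' : V →L[ℝ] E := (L : V →L[ℂ] E).restrictScalars ℝ
  (((ContinuousLinearMap.compL ℝ V (E →L[ℝ] ℝ) (V →L[ℝ] ℝ))
    ((ContinuousLinearMap.compL ℝ V E ℝ).flip L'))).comp
    ((ContinuousLinearMap.compL ℝ V E (E →L[ℝ] ℝ)).flip L')

theorem linB_apply (L : V ≃L[ℂ] E) (B : E →L[ℝ] E →L[ℝ] ℝ) (v w : V) :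
    linB L B v w = B (L v) (L w) := rfl

/-- linear pull back of a metric -/
def linPull (L : V ≃L[ℂ] E) (k : E → E →L[ℝ] E →L[ℝ] ℝ) (z : V) : V →L[ℝ] V →L[ℝ] ℝ :=
  linB L (k (L z))

theorem linPull_apply (L : V ≃L[ℂ] E) (k : E → E →L[ℝ] E →L[ℝ] ℝ) (z v w : V) :
    linPull L k z v w = k (L z) (L v) (L w) := rfl

theorem contDiff_L (L : V ≃L[ℂ] E) : ContDiff ℝ ∞ L :=
  ((L : V →L[ℂ] E).restrictScalars ℝ).contDiff

theorem hasFDerivAt_L (L : V ≃L[ℂ] E) (z : V) :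
    HasFDerivAt L ((L : V →L[ℂ] E).restrictScalars ℝ) z :=
  ((L : V →L[ℂ] E).restrictScalars ℝ).hasFDerivAt

theorem fderiv_linPull (h : LocalKahler k U) (L : V ≃L[ℂ] E) (hz : L z ∈ U) (u v w : V) :
    fderiv ℝ (linPull L k) z u v w = fderiv ℝ k (L z) (L u) (L v) (L w) := by
  have h1 : HasFDerivAt (fun z => k (L z)) ((fderiv ℝ k (L z)).comp
    ((L : V →L[ℂ] E).restrictScalars ℝ)) z :=
    (h.differentiableAt hz).hasFDerivAt.comp z (hasFDerivAt_L L z)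
  have h2 : HasFDerivAt (linPull L k) ((linB L).comp ((fderiv ℝ k (L z)).comp
    ((L : V →L[ℂ] E).restrictScalars ℝ))) z := (linB L).hasFDerivAt.comp z h1
  rw [h2.fderiv]
  rfl

theorem fderiv2_linPull (h : LocalKahler k U) (L : V ≃L[ℂ] E) (hz : L z ∈ U) (u u' v w : V) :
    fderiv ℝ (fderiv ℝ (linPull L k)) z u u' v w
      = fderiv ℝ (fderiv ℝ k) (L z) (L u) (L u') (L v) (L w) := by
  have hO : IsOpen (L ⁻¹' U) := h.isOpen.preimage L.continuous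
  have h0 : ∀ y ∈ L ⁻¹' U, fderiv ℝ (linPull L k) y = (linB L).comp ((fderiv ℝ k (L y)).comp
    ((L : V →L[ℂ] E).restrictScalars ℝ)) := by
    intro y hy
    ext u v w
    rw [fderiv_linPull h L hy]; rfl
  have h1 : HasFDerivAt (fun z => fderiv ℝ k (L z)) ((fderiv ℝ (fderiv ℝ k) (L z)).comp
    ((L : V →L[ℂ] E).restrictScalars ℝ)) z :=
    (h.differentiableAt_fderiv hz).hasFDerivAt.comp z (hasFDerivAt_L L z)
  have h2 : fderiv ℝ (linPull L k) =ᶠ[𝓝 z] fun y => (linB L).comp ((fderiv ℝ k (L y)).comp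
    ((L : V →L[ℂ] E).restrictScalars ℝ)) := by
    filter_upwards [hO.mem_nhds hz] with y hy using h0 y hy
  set C1 : (E →L[ℝ] E →L[ℝ] E →L[ℝ] ℝ) →L[ℝ] (V →L[ℝ] V →L[ℝ] V →L[ℝ] ℝ) :=
    (ContinuousLinearMap.compL ℝ V (E →L[ℝ] E →L[ℝ] ℝ) (V →L[ℝ] V →L[ℝ] ℝ) (linB L)).comp
      ((ContinuousLinearMap.compL ℝ V E (E →L[ℝ] E →L[ℝ] ℝ)).flip
        ((L : V →L[ℂ] E).restrictScalars ℝ))
  have h3 : HasFDerivAt (fun y => C1 (fderiv ℝ k (L y)))
      (C1.comp ((fderiv ℝ (fderiv ℝ k) (L z)).comp ((L : V →L[ℂ] E).restrictScalars ℝ))) z :=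
    C1.hasFDerivAt.comp z h1
  have h4 : (fun y => (linB L).comp ((fderiv ℝ k (L y)).comp
    ((L : V →L[ℂ] E).restrictScalars ℝ))) = fun y => C1 (fderiv ℝ k (L y)) := rfl
  rw [h2.fderiv_eq, h4, h3.fderiv]
  rfl

theorem pos_linPull (h : LocalKahler k U) (L : V ≃L[ℂ] E) (hz : L z ∈ U) (v : V) (hv : v ≠ 0) :
    0 < linPull L k z v v := by
  rw [linPull_apply]
  exact h.pos _ hz _ (fun h0 => hv (L.injective (h0.trans (map_zero L).symm)))

theorem chris_linPull (h : LocalKahler k U) (L : V ≃L[ℂ] E) (hz : L z ∈ U) (u v : V) :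
    chris (linPull L k) z u v = L.symm (chris k (L z) (L u) (L v)) := by
  symm
  refine eq_chris_of_pos (fun v hv => pos_linPull h L hz v hv) u v _ (fun w => ?_)
  rw [linPull_apply, L.apply_symm_apply, h.chris_spec hz]
  simp only [koszul, fderiv_linPull h L hz]

theorem localKahler_linPull (h : LocalKahler k U) (L : V ≃L[ℂ] E) :
    LocalKahler (linPull L k) (L ⁻¹' U) := by
  refine ⟨h.isOpen.preimage L.continuous, ?_, ?_, fun z hz v hv => pos_linPull h L hz v hv,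
    ?_, ?_⟩
  · exact (linB L).contDiff.comp_contDiffOn
      (h.smooth.comp (contDiff_L L).contDiffOn (fun z hz => hz))
  · intro z hz v w
    rw [linPull_apply, linPull_apply, h.symm _ hz]
  · intro z hz v w
    rw [linPull_apply, linPull_apply, map_smul L, map_smul L, h.herm _ hz]
  · intro z hz u v
    rw [chris_linPull h L hz, chris_linPull h L hz, map_smul, h.par _ hz, map_smul]

theorem Rc_linPull (h : LocalKahler k U) (L : V ≃L[ℂ] E) (hz : L z ∈ U) (X a : V) :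
    Rc (linPull L k) z X a = Rc k (L z) (L X) (L a) := by
  simp only [Rc, linPull_apply, chris_linPull h L hz, L.apply_symm_apply,
    fderiv2_linPull h L hz, map_smul]

end linear

section pull

variable {E : Type*} [NormedAddCommGroup E] [NormedSpace ℂ E] [FiniteDimensional ℂ E]
  {M : Type*} [MetricSpace M] [ChartedSpace E M]
  [IsManifold 𝓘(ℂ, E) 1 M] [IsManifold 𝓘(ℝ, E) ∞ M]
  [RiemannianBundle (fun x : M => TangentSpace 𝓘(ℝ, E) x)]
  {V : Type*} [NormedAddCommGroup V] [NormedSpace ℂ V] [FiniteDimensional ℂ V]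

/-- The metric of `M` pulled back by `Φ : V → M`. -/
def pullG (Φ : V → M) (z : V) : V →L[ℝ] V →L[ℝ] ℝ :=
  ContinuousLinearMap.bilinearComp (innerSL ℝ (E := TangentSpace 𝓘(ℝ, E) (Φ z)))
    (mfderiv 𝓘(ℝ, V) 𝓘(ℝ, E) Φ z) (mfderiv 𝓘(ℝ, V) 𝓘(ℝ, E) Φ z)

theorem pullG_apply (Φ : V → M) (z v w : V) :
    pullG (E := E) Φ z v w = inner ℝ
      (mfderiv 𝓘(ℝ, V) 𝓘(ℝ, E) Φ z v : TangentSpace 𝓘(ℝ, E) (Φ z))
      (mfderiv 𝓘(ℝ, V) 𝓘(ℝ, E) Φ z w : TangentSpace 𝓘(ℝ, E) (Φ z)) := rfl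

/-- `Φ` is holomorphic and étale on `G`. -/
structure IsEtale (E : Type*) [NormedAddCommGroup E] [NormedSpace ℂ E] {M : Type*}
    [TopologicalSpace M] [ChartedSpace E M] {V : Type*} [NormedAddCommGroup V] [NormedSpace ℂ V]
    (Φ : V → M) (G : Set V) : Prop where
  isOpen : IsOpen G
  holo : ∀ z ∈ G, MDifferentiableAt 𝓘(ℂ, V) 𝓘(ℂ, E) Φ z
  bij : ∀ z ∈ G, Function.Bijective (mfderiv 𝓘(ℂ, V) 𝓘(ℂ, E) Φ z)

/-- Near every point an étale map is the inverse of a holomorphic chart. -/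
theorem IsEtale.exists_chart {Φ : V → M} {G : Set V} (hΦ : IsEtale E Φ G) {z₀ : V}
    (hz₀ : z₀ ∈ G) :
    ∃ e ∈ maximalAtlas 𝓘(ℂ, E) 1 M, ∃ L : V ≃L[ℂ] E, ∃ W : Set V, IsOpen W ∧ z₀ ∈ W ∧ W ⊆ G ∧
      (∀ z ∈ W, L z ∈ e.target) ∧ ∀ z ∈ W, Φ z = e.symm (L z) := by
  have hCE : CompleteSpace E := FiniteDimensional.complete ℂ E
  have hCV : CompleteSpace V := FiniteDimensional.complete ℂ V
  have hc : chartAt E (Φ z₀) ∈ maximalAtlas 𝓘(ℂ, E) 1 M := chart_mem_maximalAtlas (Φ z₀)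
  have hz₀c : Φ z₀ ∈ (chartAt E (Φ z₀)).source := mem_chart_source E (Φ z₀)
  -- the derivative in the chart
  set L₀ : V →L[ℂ] E := fderiv ℂ (fun z => chartAt E (Φ z₀) (Φ z)) z₀ with hL₀
  have hbij : Function.Bijective L₀ := by
    have hmd := hΦ.holo z₀ hz₀
    have h0 : (mfderiv 𝓘(ℂ, V) 𝓘(ℂ, E) Φ z₀ : V →L[ℂ] E) =
        fderivWithin ℂ (writtenInExtChartAt 𝓘(ℂ, V) 𝓘(ℂ, E) z₀ Φ) (range 𝓘(ℂ, V))
          (extChartAt 𝓘(ℂ, V) z₀ z₀) := hmd.mfderiv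
    have h1 : (mfderiv 𝓘(ℂ, V) 𝓘(ℂ, E) Φ z₀ : V →L[ℂ] E) = L₀ := by
      rw [h0]
      simp only [writtenInExtChartAt, extChartAt, mfld_simps, fderivWithin_univ]
      rfl
    have h2 := hΦ.bij z₀ hz₀
    have h3 : (⇑(mfderiv 𝓘(ℂ, V) 𝓘(ℂ, E) Φ z₀) : V → E) = ⇑L₀ := by
      exact congrArg (fun T : V →L[ℂ] E => (T : V → E)) h1
    exact h3 ▸ h2
  set L : V ≃L[ℂ] E := (LinearEquiv.ofBijective (L₀ : V →ₗ[ℂ] E) hbij).toContinuousLinearEquiv
    with hL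
  have hLL : (L : V →L[ℂ] E) = L₀ := by
    ext v; rfl
  set c := chartAt E (Φ z₀) with hcdef
  -- the open set where everything is defined
  have hΦc : ContinuousOn Φ G := fun z hz => (hΦ.holo z hz).continuousAt.continuousWithinAt
  have hG'o : IsOpen (G ∩ Φ ⁻¹' c.source) := hΦc.isOpen_inter_preimage hΦ.isOpen c.open_source
  set G' := G ∩ Φ ⁻¹' c.source with hG'
  have hUo : IsOpen (L.symm ⁻¹' G') := hG'o.preimage L.symm.continuous
  set U := L.symm ⁻¹' G' with hU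
  set ψ : E → E := fun w => c (Φ (L.symm w)) with hψ
  have hT : DifferentiableOn ℂ (fun z => c (Φ z)) G' := by
    intro z hz
    have h1 : MDifferentiableAt 𝓘(ℂ, V) 𝓘(ℂ, E) Φ z := hΦ.holo z hz.1
    have h2 : MDifferentiableAt 𝓘(ℂ, E) 𝓘(ℂ, E) c (Φ z) :=
      ((contMDiffOn_of_mem_maximalAtlas hc).contMDiffAt
        (c.open_source.mem_nhds hz.2)).mdifferentiableAt (by simp)
    exact (h2.comp z h1).differentiableAt.differentiableWithinAt
  have hψd : DifferentiableOn ℂ ψ U := by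
    intro w hw
    have h1 : DifferentiableAt ℂ (fun z => c (Φ z)) (L.symm w) :=
      (hT _ hw).differentiableAt (hG'o.mem_nhds hw)
    exact (h1.comp w L.symm.differentiableAt).differentiableWithinAt
  have hz₁ : L z₀ ∈ U := by
    simp only [hU, mem_preimage, L.symm_apply_apply]
    exact ⟨hz₀, hz₀c⟩
  have hd : HasFDerivAt ψ (ContinuousLinearMap.id ℂ E) (L z₀) := by
    have h1 : HasFDerivAt (fun z => c (Φ z)) L₀ (L.symm (L z₀)) := by
      rw [L.symm_apply_apply]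
      exact ((hT z₀ ⟨hz₀, hz₀c⟩).differentiableAt (hG'o.mem_nhds ⟨hz₀, hz₀c⟩)).hasFDerivAt
    have h2 := h1.comp (L z₀) L.symm.hasFDerivAt
    have h3 : L₀.comp (L.symm : E →L[ℂ] V) = ContinuousLinearMap.id ℂ E := by
      rw [← hLL]; ext v; simp
    rw [h3] at h2
    exact h2
  obtain ⟨Ψ, hΨ1, hΨ2, hΨ3, hΨ4⟩ := exists_inverse_chart hUo hψd hz₁ hd
  set e : OpenPartialHomeomorph M E := c.trans Ψ.symm with he
  have hsrc : ∀ w ∈ Ψ.source, Ψ w ∈ c.target ∧ c.symm (Ψ w) = Φ (L.symm w) := by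
    intro w hw
    have h1 : L.symm w ∈ G' := hΨ2 hw
    rw [hΨ3]
    exact ⟨c.map_source h1.2, c.left_inv h1.2⟩
  have htgt : ∀ w ∈ Ψ.source, w ∈ e.target := by
    intro w hw
    rw [he, OpenPartialHomeomorph.trans_target]
    refine ⟨hw, ?_⟩
    change Ψ w ∈ c.target
    exact (hsrc w hw).1
  refine ⟨e, ?_, L, L ⁻¹' Ψ.source, Ψ.open_source.preimage L.continuous, hΨ1, ?_, ?_, ?_⟩
  · refine OpenPartialHomeomorph.mem_maximalAtlas_of_contMDiffOn e ?_ ?_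
    · intro x hx
      rw [he, OpenPartialHomeomorph.trans_source] at hx
      have h1 : ContMDiffAt 𝓘(ℂ, E) 𝓘(ℂ, E) 1 c x :=
        (contMDiffOn_of_mem_maximalAtlas hc).contMDiffAt (c.open_source.mem_nhds hx.1)
      have h2 : ContDiffAt ℂ ∞ Ψ.symm (c x) := hΨ4 _ hx.2
      exact (((h2.of_le (by simp : (1:WithTop ℕ∞) ≤ ∞)).contMDiffAt).comp x h1).contMDiffWithinAt
    · intro w hw
      rw [he, OpenPartialHomeomorph.trans_target] at hw
      have hw1 : w ∈ Ψ.source := hw.1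
      have hw2 : Ψ w ∈ c.target := hw.2
      have h1 : ContMDiffAt 𝓘(ℂ, E) 𝓘(ℂ, E) 1 c.symm (Ψ w) :=
        (contMDiffOn_symm_of_mem_maximalAtlas hc).contMDiffAt (c.open_target.mem_nhds hw2)
      have h2 : ContDiffAt ℂ ∞ ψ w :=
        (contDiffOn_of_differentiableOn_complex hUo hψd).contDiffAt (hUo.mem_nhds (hΨ2 hw1))
      have h3 : ContDiffAt ℂ ∞ Ψ w := by
        have : (Ψ : E → E) = ψ := funext hΨ3
        rw [this]; exact h2
      have h4 := h1.comp w ((h3.of_le (by simp : (1:WithTop ℕ∞) ≤ ∞)).contMDiffAt)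
      exact h4.contMDiffWithinAt
  · intro z hz
    have h1 := hΨ2 hz
    simp only [hU, mem_preimage, L.symm_apply_apply] at h1
    exact h1.1
  · intro z hz
    exact htgt _ hz
  · intro z hz
    have h1 := (hsrc _ hz).2
    rw [L.symm_apply_apply] at h1
    exact h1.symm

variable [IsContMDiffRiemannianBundle 𝓘(ℝ, E) ∞ E (fun x : M => TangentSpace 𝓘(ℝ, E) x)]

/-- the inner product of two tangent vectors at `x` -/
def innerAt (x : M) (a b : E) : ℝ :=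
  @inner ℝ (TangentSpace 𝓘(ℝ, E) x) _ (a : TangentSpace 𝓘(ℝ, E) x) (b : TangentSpace 𝓘(ℝ, E) x)

theorem innerAt_congr {x y : M} (hxy : x = y) (a b : E) :
    innerAt (E := E) x a b = innerAt (E := E) y a b := by
  subst hxy; rfl

/-- The pulled back metric is locally the metric in a chart. -/
theorem pullG_eq {Φ : V → M} {e : OpenPartialHomeomorph M E}
    (he : e ∈ maximalAtlas 𝓘(ℂ, E) 1 M) {L : V ≃L[ℂ] E} {W : Set V} (hW : IsOpen W)
    (hWt : ∀ z ∈ W, L z ∈ e.target) (hΦ : ∀ z ∈ W, Φ z = e.symm (L z)) :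
    EqOn (pullG (E := E) Φ) (linPull L (chartG e)) W := by
  intro z hz
  have her := mem_maximalAtlas_real he
  have h1 : Φ =ᶠ[𝓝 z] fun z => e.symm (L z) := by
    filter_upwards [hW.mem_nhds hz] with y hy using hΦ y hy
  have h2 : HasMFDerivAt 𝓘(ℝ, E) 𝓘(ℝ, E) e.symm (L z) (mfderiv 𝓘(ℝ, E) 𝓘(ℝ, E) e.symm (L z)) :=
    (((contMDiffOn_symm_of_mem_maximalAtlas her).contMDiffAt
      (e.open_target.mem_nhds (hWt z hz))).mdifferentiableAt (by simp)).hasMFDerivAt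
  have h3 : HasMFDerivAt 𝓘(ℝ, V) 𝓘(ℝ, E) L z ((L : V →L[ℂ] E).restrictScalars ℝ) :=
    (hasFDerivAt_L L z).hasMFDerivAt
  have h4 := (h2.comp z h3).congr_of_eventuallyEq h1
  have h5 : Φ z = e.symm (L z) := hΦ z hz
  ext v w
  have h6 : pullG (E := E) Φ z v w = innerAt (E := E) (Φ z)
    (mfderiv 𝓘(ℝ, V) 𝓘(ℝ, E) Φ z v) (mfderiv 𝓘(ℝ, V) 𝓘(ℝ, E) Φ z w) := rfl
  have h7 : linPull L (chartG e) z v w = innerAt (E := E) (e.symm (L z))
    (mfderiv 𝓘(ℝ, E) 𝓘(ℝ, E) e.symm (L z) (L v))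
    (mfderiv 𝓘(ℝ, E) 𝓘(ℝ, E) e.symm (L z) (L w)) := rfl
  have e1 : ∀ u : V, (mfderiv 𝓘(ℝ, V) 𝓘(ℝ, E) Φ z : V → E) u
      = (mfderiv 𝓘(ℝ, E) 𝓘(ℝ, E) e.symm (L z) : E → E) (L u) := by
    intro u
    exact congrArg (fun T : V →L[ℝ] E => T u) h4.mfderiv
  have h8 := congrArg₂ (innerAt (E := E) (M := M) (Φ z)) (e1 v) (e1 w)
  exact h6.trans (h8.trans ((innerAt_congr h5 _ _).trans h7.symm))

theorem localKahler_pullG (hK : IsKahler E M) {Φ : V → M} {G : Set V} (hΦ : IsEtale E Φ G) :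
    LocalKahler (pullG (E := E) Φ) G := by
  refine localKahler_of_local hΦ.isOpen (fun z hz => ?_)
  obtain ⟨e, he, L, W, hWo, hzW, hWG, hWt, hWΦ⟩ := hΦ.exists_chart hz
  have h1 := localKahler_linPull (localKahler_chartG hK he) L
  refine ⟨W, linPull L (chartG e), hzW, ⟨hWo, h1.smooth.mono hWt, fun z hz => h1.symm z (hWt z hz),
    fun z hz => h1.pos z (hWt z hz), fun z hz => h1.herm z (hWt z hz),
    fun z hz => h1.par z (hWt z hz)⟩, pullG_eq he hWo hWt hWΦ⟩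

theorem Rc_nonneg_pullG (hK : IsKahler E M) {Φ : V → M} {G : Set V} (hΦ : IsEtale E Φ G)
    {z : V} (hz : z ∈ G) (hnn : NonnegBisectionalAt E (Φ z)) (X a : V) :
    0 ≤ Rc (pullG (E := E) Φ) z X a := by
  obtain ⟨e, he, L, W, hWo, hzW, hWG, hWt, hWΦ⟩ := hΦ.exists_chart hz
  rw [Rc_congr hWo (pullG_eq he hWo hWt hWΦ) hzW, Rc_linPull (localKahler_chartG hK he) L
    (hWt z hzW)]
  refine Rc_nonneg_chartG hK he (hWt z hzW) ?_ _ _
  rw [← hWΦ z hzW]; exact hnn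

end pull

end Vale.Agent.P253.R2.H384
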